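import Mathlib

/-!
# An abstract symmetry reduction for quadratic forms (helper40, S0453 / WP-D1)

`form_nonneg_of_symmetry`: on a finite-dimensional coordinate space `ι → ℝ`, let `H` be a
subspace, `B` a symmetric bilinear form and `τ j` a family of linear involutions preserving `H`,
`B` and the standard dot product.  If `B x x ≥ 0` for every `x ∈ H` that is antisymmetric for some
`τ j`, and for every `x ∈ H` fixed by all `τ j`, then `B x x ≥ 0` on all of `H`.

Proof: minimise `B x x` on the unit sphere of `H` (compactness), derive the first-order condition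
`B v h = q ⟨v, h⟩`, and show that the antisymmetric parts of a minimiser with `q < 0` vanish.
No spectral theorem is used.
-/

set_option autoImplicit false

namespace Crest.Agent.Helper40.S0453

open Finset

/-- A quadratic polynomial inequality `a t² + b t ≥ 0` for all `t` forces `b = 0`. -/
theorem linear_coeff_eq_zero_of_forall_nonneg {a b : ℝ}
    (h : ∀ t : ℝ, 0 ≤ a * t ^ 2 + b * t) : b = 0 := by
  by_contra hb
  have hpos : 0 < |a| + 1 := by positivity
  have h1 := h (-b / (2 * (|a| + 1)))
  have h2 : a * (-b / (2 * (|a| + 1))) ^ 2 + b * (-b / (2 * (|a| + 1)))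
      = (b ^ 2 / (4 * (|a| + 1) ^ 2)) * (a - 2 * (|a| + 1)) := by
    field_simp
    ring
  rw [h2] at h1
  have h3 : a - 2 * (|a| + 1) < 0 := by
    have := le_abs_self a
    linarith [abs_nonneg a]
  have h4 : 0 < b ^ 2 / (4 * (|a| + 1) ^ 2) := by
    have : 0 < b ^ 2 := by positivity
    positivity
  nlinarith

variable {ι : Type*} [Fintype ι]

/-- the standard dot product on `ι → ℝ`, written as an explicit sum -/
def dot (x y : ι → ℝ) : ℝ := ∑ i, x i * y i

theorem dot_comm (x y : ι → ℝ) : dot x y = dot y x := by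
  unfold dot; exact Finset.sum_congr rfl (fun i _ => mul_comm _ _)

theorem dot_add_left (x y z : ι → ℝ) : dot (x + y) z = dot x z + dot y z := by
  unfold dot; rw [← Finset.sum_add_distrib]
  exact Finset.sum_congr rfl (fun i _ => by simp [add_mul])

theorem dot_smul_left (c : ℝ) (x z : ι → ℝ) : dot (c • x) z = c * dot x z := by
  unfold dot; rw [Finset.mul_sum]
  exact Finset.sum_congr rfl (fun i _ => by simp [mul_assoc])

theorem dot_add_right (x y z : ι → ℝ) : dot x (y + z) = dot x y + dot x z := by
  rw [dot_comm, dot_add_left, dot_comm y, dot_comm z]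

theorem dot_smul_right (c : ℝ) (x z : ι → ℝ) : dot x (c • z) = c * dot x z := by
  rw [dot_comm, dot_smul_left, dot_comm]

theorem dot_self_nonneg (x : ι → ℝ) : 0 ≤ dot x x := by
  unfold dot; exact Finset.sum_nonneg (fun i _ => mul_self_nonneg _)

theorem dot_self_eq_zero {x : ι → ℝ} (h : dot x x = 0) : x = 0 := by
  unfold dot at h
  have := (Finset.sum_eq_zero_iff_of_nonneg (fun i _ => mul_self_nonneg (x i))).1 h
  funext i
  have hi := this i (Finset.mem_univ i)
  simpa using mul_self_eq_zero.1 hi

theorem continuous_dot_self : Continuous fun x : ι → ℝ => dot x x := by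
  unfold dot; fun_prop

/-- **Abstract symmetry reduction.** -/
theorem form_nonneg_of_symmetry
    (H : Submodule ℝ (ι → ℝ))
    (B : (ι → ℝ) →ₗ[ℝ] (ι → ℝ) →ₗ[ℝ] ℝ)
    (hBsymm : ∀ x y, B x y = B y x)
    {J : Type*} (τ : J → (ι → ℝ) →ₗ[ℝ] (ι → ℝ))
    (hτH : ∀ j, ∀ x ∈ H, τ j x ∈ H)
    (hτB : ∀ j x y, B (τ j x) (τ j y) = B x y)
    (hτdot : ∀ j x y, dot (τ j x) (τ j y) = dot x y)
    (hτinv : ∀ j x, τ j (τ j x) = x)
    (hanti : ∀ j, ∀ x ∈ H, τ j x = -x → 0 ≤ B x x)
    (hinv : ∀ x ∈ H, (∀ j, τ j x = x) → 0 ≤ B x x) :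
    ∀ x ∈ H, 0 ≤ B x x := by
  by_contra hcon
  push Not at hcon
  obtain ⟨x0, hx0H, hx0neg⟩ := hcon
  -- continuity of the quadratic form
  have hBcont : Continuous fun x : ι → ℝ => B x x := by
    have h2 := (B.toContinuousBilinearMap).continuous₂
    have : (fun x : ι → ℝ => B x x)
        = (Function.uncurry fun x y => B.toContinuousBilinearMap x y) ∘ (fun x => (x, x)) := by
      funext x; simp
    rw [this]
    exact h2.comp (continuous_id.prodMk continuous_id)
  -- the unit sphere of H
  set S : Set (ι → ℝ) := {x | x ∈ H ∧ dot x x = 1} with hS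
  have hx0ne : dot x0 x0 ≠ 0 := by
    intro h0
    have : x0 = 0 := dot_self_eq_zero h0
    rw [this] at hx0neg
    simp at hx0neg
  have hx0pos : 0 < dot x0 x0 := lt_of_le_of_ne (dot_self_nonneg x0) (Ne.symm hx0ne)
  have hSne : S.Nonempty := by
    refine ⟨(Real.sqrt (dot x0 x0))⁻¹ • x0, H.smul_mem _ hx0H, ?_⟩
    rw [dot_smul_left, dot_smul_right, ← mul_assoc, ← mul_inv, Real.mul_self_sqrt hx0pos.le]
    exact inv_mul_cancel₀ hx0ne
  have hSclosed : IsClosed S := by
    have h1 : IsClosed (H : Set (ι → ℝ)) := H.closed_of_finiteDimensional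
    have h2 : IsClosed {x : ι → ℝ | dot x x = 1} :=
      isClosed_eq continuous_dot_self continuous_const
    exact h1.inter h2
  have hSbdd : Bornology.IsBounded S := by
    refine (Metric.isBounded_closedBall (x := (0 : ι → ℝ)) (r := 1)).subset ?_
    intro x hx
    rw [Metric.mem_closedBall, dist_zero_right, pi_norm_le_iff_of_nonneg zero_le_one]
    intro i
    have h1 : x i * x i ≤ dot x x := by
      unfold dot
      exact Finset.single_le_sum (f := fun i => x i * x i) (fun j _ => mul_self_nonneg _)
        (Finset.mem_univ i)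
    rw [hx.2] at h1
    rw [Real.norm_eq_abs]
    exact abs_le_one_iff_mul_self_le_one.2 h1
  have hScompact : IsCompact S := Metric.isCompact_of_isClosed_isBounded hSclosed hSbdd
  obtain ⟨v, hvS, hvmin⟩ := hScompact.exists_isMinOn hSne hBcont.continuousOn
  set q : ℝ := B v v with hq
  have hvH : v ∈ H := hvS.1
  have hvdot : dot v v = 1 := hvS.2
  -- q is negative
  have hqneg : q < 0 := by
    have hmem : (Real.sqrt (dot x0 x0))⁻¹ • x0 ∈ S := by
      refine ⟨H.smul_mem _ hx0H, ?_⟩
      rw [dot_smul_left, dot_smul_right, ← mul_assoc, ← mul_inv, Real.mul_self_sqrt hx0pos.le]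
      exact inv_mul_cancel₀ hx0ne
    have h1 : q ≤ B ((Real.sqrt (dot x0 x0))⁻¹ • x0) ((Real.sqrt (dot x0 x0))⁻¹ • x0) :=
      hvmin hmem
    have h2 : B ((Real.sqrt (dot x0 x0))⁻¹ • x0) ((Real.sqrt (dot x0 x0))⁻¹ • x0)
        = (dot x0 x0)⁻¹ * B x0 x0 := by
      simp only [map_smul, LinearMap.smul_apply, smul_eq_mul]
      rw [← mul_assoc, ← mul_inv, Real.mul_self_sqrt hx0pos.le]
    rw [h2] at h1
    have h3 : (dot x0 x0)⁻¹ * B x0 x0 < 0 := mul_neg_of_pos_of_neg (inv_pos.2 hx0pos) hx0neg
    linarith
  -- lower bound on all of H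
  have hlow : ∀ w ∈ H, q * dot w w ≤ B w w := by
    intro w hw
    by_cases hw0 : dot w w = 0
    · have : w = 0 := dot_self_eq_zero hw0
      subst this
      simp [hw0]
    · have hwpos : 0 < dot w w := lt_of_le_of_ne (dot_self_nonneg w) (Ne.symm hw0)
      have hmem : (Real.sqrt (dot w w))⁻¹ • w ∈ S := by
        refine ⟨H.smul_mem _ hw, ?_⟩
        rw [dot_smul_left, dot_smul_right, ← mul_assoc, ← mul_inv, Real.mul_self_sqrt hwpos.le]
        exact inv_mul_cancel₀ hw0
      have h1 : q ≤ B ((Real.sqrt (dot w w))⁻¹ • w) ((Real.sqrt (dot w w))⁻¹ • w) := hvmin hmem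
      have h2 : B ((Real.sqrt (dot w w))⁻¹ • w) ((Real.sqrt (dot w w))⁻¹ • w)
          = (dot w w)⁻¹ * B w w := by
        simp only [map_smul, LinearMap.smul_apply, smul_eq_mul]
        rw [← mul_assoc, ← mul_inv, Real.mul_self_sqrt hwpos.le]
      rw [h2] at h1
      have h3 : q * dot w w ≤ (dot w w)⁻¹ * B w w * dot w w :=
        mul_le_mul_of_nonneg_right h1 hwpos.le
      have h4 : (dot w w)⁻¹ * B w w * dot w w = B w w := by
        field_simp
      linarith
  -- first-order condition
  have hfirst : ∀ h ∈ H, B v h = q * dot v h := by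
    intro h hh
    have key : ∀ t : ℝ, 0 ≤ (B h h - q * dot h h) * t ^ 2 + (2 * (B v h - q * dot v h)) * t := by
      intro t
      have hmem : v + t • h ∈ H := H.add_mem hvH (H.smul_mem _ hh)
      have h1 := hlow _ hmem
      have e1 : B (v + t • h) (v + t • h) = q + 2 * t * B v h + t ^ 2 * B h h := by
        simp only [map_add, map_smul, LinearMap.add_apply, LinearMap.smul_apply, smul_eq_mul]
        rw [hBsymm h v]
        ring
      have e2 : dot (v + t • h) (v + t • h) = 1 + 2 * t * dot v h + t ^ 2 * dot h h := by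
        rw [dot_add_left, dot_add_right, dot_add_right, dot_smul_left, dot_smul_right,
          dot_smul_right, dot_smul_left, hvdot, dot_comm h v]
        ring
      rw [e1, e2] at h1
      nlinarith
    have := linear_coeff_eq_zero_of_forall_nonneg key
    linarith
  -- the minimiser is invariant under every τ j
  have hinvv : ∀ j, τ j v = v := by
    intro j
    set u : ι → ℝ := (1 / 2 : ℝ) • (v - τ j v) with hu
    have huH : u ∈ H := H.smul_mem _ (H.sub_mem hvH (hτH j v hvH))
    have hτu : τ j u = -u := by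
      rw [hu, map_smul, map_sub, hτinv]
      rw [← smul_neg]
      congr 1
      abel
    have h1 : 0 ≤ B u u := hanti j u huH hτu
    have h2 : B v u = q * dot v u := hfirst u huH
    have h3 : B (τ j v) u = -(q * dot v u) := by
      have : B (τ j v) u = B (τ j v) (τ j (τ j u)) := by rw [hτinv]
      rw [this, hτB, hτu, map_neg, h2]
    have h4 : B u u = q * dot v u := by
      have : B u u = (1 / 2 : ℝ) * (B v u - B (τ j v) u) := by
        calc B u u = B ((1 / 2 : ℝ) • (v - τ j v)) u := by rw [← hu]
          _ = (1 / 2 : ℝ) * (B v u - B (τ j v) u) := by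
            simp only [map_smul, map_sub, LinearMap.smul_apply, LinearMap.sub_apply, smul_eq_mul]
      rw [this, h2, h3]; ring
    have h5 : dot v u = dot u u := by
      have hd1 : dot (τ j v) (τ j v) = dot v v := hτdot j v v
      have e1 : dot v u = (1 / 2 : ℝ) * (dot v v - dot v (τ j v)) := by
        rw [hu, dot_smul_right]
        congr 1
        have : v - τ j v = v + (-1 : ℝ) • τ j v := by
          rw [neg_one_smul]; abel
        rw [this, dot_add_right, dot_smul_right]; ring
      have e2 : dot u u = (1 / 4 : ℝ) * (dot v v - 2 * dot v (τ j v) + dot (τ j v) (τ j v)) := by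
        have : v - τ j v = v + (-1 : ℝ) • τ j v := by
          rw [neg_one_smul]; abel
        rw [hu, dot_smul_left, dot_smul_right, this, dot_add_left, dot_add_right, dot_add_right,
          dot_smul_left, dot_smul_right, dot_smul_right, dot_smul_left, dot_comm (τ j v) v]
        ring
      rw [e1, e2, hd1]; ring
    have h6 : dot u u ≤ 0 := by
      rw [h4, h5] at h1
      by_contra hpos
      push Not at hpos
      have : q * dot u u < 0 := mul_neg_of_neg_of_pos hqneg hpos
      linarith
    have h7 : u = 0 := dot_self_eq_zero (le_antisymm h6 (dot_self_nonneg u))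
    have h8 : v - τ j v = 0 := by
      have : (2 : ℝ) • u = v - τ j v := by
        rw [hu, smul_smul]; norm_num
      rw [← this, h7, smul_zero]
    exact (sub_eq_zero.1 h8).symm
  have := hinv v hvH hinvv
  linarith

end Crest.Agent.Helper40.S0453
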