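import Mathlib

/-!
# (L3) for three-row 0/1 tables from (L3) for the colouring model (helper40, S0453, WP-D1t)

A three-row 0/1 table with column set `C`, row sums `r` and column sums `c` is a triple of rows
`x : Fin 3 → Finset C`.  Columns of sum `0` or `3` are frozen; a column of sum `1` is determined by
the row holding its `1`, a column of sum `2` by the row holding its `0`.  This identifies the set
of tables with the states of the colouring model on `K1 = {w // c w = 1}`, `K2 = {w // c w = 2}`
(`notes/s0453/PROOF.md`, (2.4)), and row `i` of the table with the view of party `i`.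

`L3_tables_of_colouring` / `L3_tables_of_colouring'` transport the colouring inequality
`L3Colouring` (stated with all definitions unfolded) to tables, in the two shapes used by the
graph side (rows-then-columns and columns-then-rows).  Mathlib only.
-/

set_option autoImplicit false

namespace Crest.Agent.Helper40.S0453

open Finset

/-- The colouring-model inequality (L3) for the item types `K1`, `K2`, all definitions unfolded:
states are pairs of colourings `s` with `#{s.1 = i} - #{s.2 = i} = dl i`, party `i` sees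
`({s.1 = i}, {s.2 = i})`. -/
def L3Colouring (K1 K2 : Type*) [Fintype K1] [DecidableEq K1] [Fintype K2] [DecidableEq K2] :
    Prop :=
  ∀ (dl : Fin 3 → ℤ) (g : Fin 3 → Finset K1 × Finset K2 → ℝ),
    (∀ i, ∑ s ∈ univ.filter (fun s : (K1 → Fin 3) × (K2 → Fin 3) =>
        ∀ i, ((univ.filter (fun a => s.1 a = i)).card : ℤ)
          - (univ.filter (fun b => s.2 b = i)).card = dl i),
        g i (univ.filter (fun a => s.1 a = i), univ.filter (fun b => s.2 b = i)) = 0) →
    ∑ s ∈ univ.filter (fun s : (K1 → Fin 3) × (K2 → Fin 3) =>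
        ∀ i, ((univ.filter (fun a => s.1 a = i)).card : ℤ)
          - (univ.filter (fun b => s.2 b = i)).card = dl i),
        (∑ i, g i (univ.filter (fun a => s.1 a = i), univ.filter (fun b => s.2 b = i))) ^ 2 ≤
      2 * ∑ s ∈ univ.filter (fun s : (K1 → Fin 3) × (K2 → Fin 3) =>
        ∀ i, ((univ.filter (fun a => s.1 a = i)).card : ℤ)
          - (univ.filter (fun b => s.2 b = i)).card = dl i),
        ∑ i, (g i (univ.filter (fun a => s.1 a = i), univ.filter (fun b => s.2 b = i))) ^ 2

section Tables

variable {C : Type*} [Fintype C] [DecidableEq C] (c : C → ℕ)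

/-- colour of a column of sum `1`: the row containing it -/
def col1 (x : Fin 3 → Finset C) (a : {w // c w = 1}) : Fin 3 :=
  if a.1 ∈ x 0 then 0 else if a.1 ∈ x 1 then 1 else 2

/-- colour of a column of sum `2`: the row not containing it -/
def col2 (x : Fin 3 → Finset C) (a : {w // c w = 2}) : Fin 3 :=
  if a.1 ∉ x 0 then 0 else if a.1 ∉ x 1 then 1 else 2

/-- the row of a table reconstructed from the view of its party -/
def rowOf (p : Finset {w // c w = 1} × Finset {w // c w = 2}) : Finset C :=
  univ.filter (fun w => c w = 3) ∪ p.1.map (Function.Embedding.subtype _)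
    ∪ (p.2ᶜ).map (Function.Embedding.subtype _)

/-- the view of party `i` in the colouring model -/
abbrev vw (i : Fin 3) (s : ({w // c w = 1} → Fin 3) × ({w // c w = 2} → Fin 3)) :
    Finset {w // c w = 1} × Finset {w // c w = 2} :=
  (univ.filter (fun a => s.1 a = i), univ.filter (fun b => s.2 b = i))

theorem mem_rowOf (p : Finset {w // c w = 1} × Finset {w // c w = 2}) (w : C) :
    w ∈ rowOf c p ↔ c w = 3 ∨ (∃ h : c w = 1, (⟨w, h⟩ : {w // c w = 1}) ∈ p.1)
      ∨ (∃ h : c w = 2, (⟨w, h⟩ : {w // c w = 2}) ∉ p.2) := by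
  unfold rowOf
  rw [mem_union, mem_union, mem_filter, mem_map, mem_map, or_assoc]
  refine or_congr (by simp) (or_congr ?_ ?_)
  · constructor
    · rintro ⟨⟨w', h'⟩, ha, rfl⟩
      exact ⟨h', ha⟩
    · rintro ⟨h, ha⟩
      exact ⟨⟨w, h⟩, ha, rfl⟩
  · constructor
    · rintro ⟨⟨w', h'⟩, ha, rfl⟩
      exact ⟨h', by simpa using ha⟩
    · rintro ⟨h, ha⟩
      exact ⟨⟨w, h⟩, by simpa using ha, rfl⟩

theorem card_rowOf (p : Finset {w // c w = 1} × Finset {w // c w = 2}) :
    (rowOf c p).card = (univ.filter (fun w => c w = 3)).card + p.1.card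
      + (Fintype.card {w // c w = 2} - p.2.card) := by
  unfold rowOf
  rw [card_union_of_disjoint, card_union_of_disjoint, card_map, card_map, card_compl]
  · rw [disjoint_left]
    intro w hw hw'
    rw [mem_filter] at hw
    rw [mem_map] at hw'
    obtain ⟨⟨w', h'⟩, -, rfl⟩ := hw'
    have := hw.2
    simp only [Function.Embedding.coe_subtype] at this
    omega
  · rw [disjoint_left]
    intro w hw hw'
    rw [mem_map] at hw'
    obtain ⟨⟨w', h'⟩, -, rfl⟩ := hw'
    rw [mem_union, mem_filter, mem_map] at hw
    rcases hw with hw | ⟨⟨w'', h''⟩, -, hw⟩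
    · have := hw.2
      simp only [Function.Embedding.coe_subtype] at this
      omega
    · simp only [Function.Embedding.coe_subtype] at hw
      subst hw
      omega

omit [Fintype C] in
theorem colsum_eq (x : Fin 3 → Finset C) (w : C) :
    (univ.filter (fun i : Fin 3 => w ∈ x i)).card
      = (if w ∈ x 0 then 1 else 0) + (if w ∈ x 1 then 1 else 0) + (if w ∈ x 2 then 1 else 0) := by
  rw [Finset.card_filter, Fin.sum_univ_three]

theorem mem_inv (s : ({w // c w = 1} → Fin 3) × ({w // c w = 2} → Fin 3)) (i : Fin 3) (w : C) :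
    w ∈ rowOf c (vw c i s) ↔ c w = 3 ∨ (∃ h : c w = 1, s.1 ⟨w, h⟩ = i)
      ∨ (∃ h : c w = 2, s.2 ⟨w, h⟩ ≠ i) := by
  rw [mem_rowOf]
  simp

theorem mem_inv_of_one (s : ({w // c w = 1} → Fin 3) × ({w // c w = 2} → Fin 3)) (i : Fin 3)
    {w : C} (h : c w = 1) : w ∈ rowOf c (vw c i s) ↔ s.1 ⟨w, h⟩ = i := by
  rw [mem_inv]
  constructor
  · rintro (h3 | ⟨_, h1⟩ | ⟨h2, _⟩)
    · omega
    · exact h1
    · omega
  · intro h1
    exact Or.inr (Or.inl ⟨h, h1⟩)

theorem mem_inv_of_two (s : ({w // c w = 1} → Fin 3) × ({w // c w = 2} → Fin 3)) (i : Fin 3)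
    {w : C} (h : c w = 2) : w ∈ rowOf c (vw c i s) ↔ s.2 ⟨w, h⟩ ≠ i := by
  rw [mem_inv]
  constructor
  · rintro (h3 | ⟨h1, _⟩ | ⟨_, h2⟩)
    · omega
    · omega
    · exact h2
  · intro h2
    exact Or.inr (Or.inr ⟨h, h2⟩)

/-- reconstructing a table from its colouring gives the table back -/
theorem rowOf_col (x : Fin 3 → Finset C)
    (hx : ∀ w, (univ.filter (fun i : Fin 3 => w ∈ x i)).card = c w) (i : Fin 3) :
    rowOf c (vw c i (col1 c x, col2 c x)) = x i := by
  ext w
  rw [mem_inv]
  have hcw := hx w
  rw [colsum_eq] at hcw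
  simp only [col1, col2]
  by_cases h0 : w ∈ x 0 <;> by_cases h1 : w ∈ x 1 <;> by_cases h2 : w ∈ x 2 <;>
    simp only [h0, h1, h2, if_true, if_false] at hcw <;>
    fin_cases i <;> simp [h0, h1, h2, ← hcw]

/-- the colouring of the table reconstructed from a pair of colourings is that pair -/
theorem col_inv (s : ({w // c w = 1} → Fin 3) × ({w // c w = 2} → Fin 3)) :
    (col1 c (fun i => rowOf c (vw c i s)), col2 c (fun i => rowOf c (vw c i s))) = s := by
  refine Prod.ext (funext ?_) (funext ?_)
  · rintro ⟨w, h⟩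
    simp only [col1, mem_inv_of_one c s _ h]
    generalize s.1 ⟨w, h⟩ = j
    revert j
    decide
  · rintro ⟨w, h⟩
    simp only [col2, mem_inv_of_two c s _ h]
    generalize s.2 ⟨w, h⟩ = j
    revert j
    decide

/-- column sums of the reconstructed table -/
theorem inv_colsum (hc3 : ∀ w, c w ≤ 3)
    (s : ({w // c w = 1} → Fin 3) × ({w // c w = 2} → Fin 3)) (w : C) :
    (univ.filter (fun i : Fin 3 => w ∈ rowOf c (vw c i s))).card = c w := by
  have h3 := hc3 w
  have hcases : c w = 0 ∨ c w = 1 ∨ c w = 2 ∨ c w = 3 := by omega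
  rcases hcases with h | h | h | h
  · rw [h, Finset.card_eq_zero, Finset.filter_eq_empty_iff]
    intro i _
    rw [mem_inv]
    rintro (h' | ⟨h', _⟩ | ⟨h', _⟩) <;> omega
  · simp only [mem_inv_of_one c s _ h]
    rw [h]
    generalize s.1 ⟨w, h⟩ = j
    revert j
    decide
  · simp only [mem_inv_of_two c s _ h]
    rw [h]
    generalize s.2 ⟨w, h⟩ = j
    revert j
    decide
  · have hall : ∀ i : Fin 3, w ∈ rowOf c (vw c i s) := fun i => by
      rw [mem_inv]; exact Or.inl h
    simp only [hall]
    rw [h]
    rfl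

/-- row sums of the reconstructed table -/
theorem inv_rowsum (r : Fin 3 → ℕ)
    (s : ({w // c w = 1} → Fin 3) × ({w // c w = 2} → Fin 3)) (i : Fin 3)
    (hs : ((univ.filter (fun a => s.1 a = i)).card : ℤ) - (univ.filter (fun b => s.2 b = i)).card
      = (r i : ℤ) - (univ.filter (fun w => c w = 3)).card - Fintype.card {w // c w = 2}) :
    (rowOf c (vw c i s)).card = r i := by
  rw [card_rowOf]
  have hle := Finset.card_le_univ (univ.filter (fun b : {w // c w = 2} => s.2 b = i))
  dsimp only [vw]
  omega

/-- the colouring of a table is a state of the colouring model -/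
theorem col_mem (r : Fin 3 → ℕ) (x : Fin 3 → Finset C) (hxr : ∀ i, (x i).card = r i)
    (hxc : ∀ w, (univ.filter (fun i : Fin 3 => w ∈ x i)).card = c w) (i : Fin 3) :
    ((univ.filter (fun a => col1 c x a = i)).card : ℤ)
        - (univ.filter (fun b => col2 c x b = i)).card
      = (r i : ℤ) - (univ.filter (fun w => c w = 3)).card - Fintype.card {w // c w = 2} := by
  have h1 := card_rowOf c (vw c i (col1 c x, col2 c x))
  rw [rowOf_col c x hxc i, hxr i] at h1
  have hle := Finset.card_le_univ (univ.filter (fun b : {w // c w = 2} => col2 c x b = i))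
  dsimp only [vw] at h1
  omega

/-- **(L3) for three-row tables from (L3) for the colouring model**, rows-then-columns shape
(`Tab r c` of helper68 / helper97 unfolded). -/
theorem L3_tables_of_colouring (r : Fin 3 → ℕ) (c : C → ℕ)
    (hL3 : L3Colouring {w // c w = 1} {w // c w = 2}) (g : Fin 3 → Finset C → ℝ)
    (h0 : ∀ i, ∑ x ∈ univ.filter (fun x : Fin 3 → Finset C => (∀ i, (x i).card = r i) ∧
        ∀ w, (univ.filter (fun i => w ∈ x i)).card = c w), g i (x i) = 0) :
    ∑ x ∈ univ.filter (fun x : Fin 3 → Finset C => (∀ i, (x i).card = r i) ∧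
        ∀ w, (univ.filter (fun i => w ∈ x i)).card = c w), (∑ i, g i (x i)) ^ 2 ≤
      2 * ∑ x ∈ univ.filter (fun x : Fin 3 → Finset C => (∀ i, (x i).card = r i) ∧
        ∀ w, (univ.filter (fun i => w ∈ x i)).card = c w), ∑ i, (g i (x i)) ^ 2 := by
  by_cases hc3 : ∀ w, c w ≤ 3
  · have key : ∀ F : (Fin 3 → Finset C) → ℝ,
        ∑ x ∈ univ.filter (fun x : Fin 3 → Finset C => (∀ i, (x i).card = r i) ∧
          ∀ w, (univ.filter (fun i => w ∈ x i)).card = c w), F x
        = ∑ s ∈ univ.filter (fun s : ({w // c w = 1} → Fin 3) × ({w // c w = 2} → Fin 3) =>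
          ∀ i, ((univ.filter (fun a => s.1 a = i)).card : ℤ)
            - (univ.filter (fun b => s.2 b = i)).card
            = (r i : ℤ) - (univ.filter (fun w => c w = 3)).card - Fintype.card {w // c w = 2}),
          F (fun i => rowOf c (vw c i s)) := by
      intro F
      refine Finset.sum_nbij' (fun x => (col1 c x, col2 c x)) (fun s i => rowOf c (vw c i s))
        ?_ ?_ ?_ ?_ ?_
      · intro x hx
        rw [mem_filter] at hx
        rw [mem_filter]
        exact ⟨mem_univ _, fun i => col_mem c r x hx.2.1 hx.2.2 i⟩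
      · intro s hs
        rw [mem_filter] at hs
        rw [mem_filter]
        exact ⟨mem_univ _, fun i => inv_rowsum c r s i (hs.2 i), fun w => inv_colsum c hc3 s w⟩
      · intro x hx
        rw [mem_filter] at hx
        funext i
        exact rowOf_col c x hx.2.2 i
      · intro s _
        exact col_inv c s
      · intro x hx
        rw [mem_filter] at hx
        congr 1
        funext i
        exact (rowOf_col c x hx.2.2 i).symm
    rw [key, key]
    exact hL3 _ (fun i p => g i (rowOf c p)) (fun i => by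
      rw [← key (fun x => g i (x i))]
      exact h0 i)
  · push Not at hc3
    obtain ⟨w, hw⟩ := hc3
    have hemp : univ.filter (fun x : Fin 3 → Finset C => (∀ i, (x i).card = r i) ∧
        ∀ w, (univ.filter (fun i => w ∈ x i)).card = c w) = ∅ := by
      rw [Finset.filter_eq_empty_iff]
      rintro x - ⟨-, hx⟩
      have h1 := hx w
      have h2 : (univ.filter (fun i : Fin 3 => w ∈ x i)).card ≤ 3 := by
        simpa using Finset.card_le_univ (univ.filter (fun i : Fin 3 => w ∈ x i))
      omega
    rw [hemp]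
    simp

/-- the same, columns-then-rows shape (`Tab c r` / `L3 C` of helper78, unfolded). -/
theorem L3_tables_of_colouring' (c : C → ℕ) (r : Fin 3 → ℕ)
    (hL3 : L3Colouring {w // c w = 1} {w // c w = 2}) (g : Fin 3 → Finset C → ℝ)
    (h0 : ∀ i, ∑ x ∈ univ.filter (fun x : Fin 3 → Finset C =>
        (∀ w, (univ.filter fun i => w ∈ x i).card = c w) ∧ ∀ i, (x i).card = r i),
        g i (x i) = 0) :
    ∑ x ∈ univ.filter (fun x : Fin 3 → Finset C =>
        (∀ w, (univ.filter fun i => w ∈ x i).card = c w) ∧ ∀ i, (x i).card = r i),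
        (∑ i, g i (x i)) ^ 2 ≤
      2 * ∑ i, ∑ x ∈ univ.filter (fun x : Fin 3 → Finset C =>
        (∀ w, (univ.filter fun i => w ∈ x i).card = c w) ∧ ∀ i, (x i).card = r i),
        g i (x i) ^ 2 := by
  have hset : univ.filter (fun x : Fin 3 → Finset C =>
        (∀ w, (univ.filter fun i => w ∈ x i).card = c w) ∧ ∀ i, (x i).card = r i)
      = univ.filter (fun x : Fin 3 → Finset C => (∀ i, (x i).card = r i) ∧
        ∀ w, (univ.filter (fun i => w ∈ x i)).card = c w) :=
    Finset.filter_congr (fun x _ => and_comm)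
  rw [hset] at h0 ⊢
  rw [Finset.sum_comm]
  exact L3_tables_of_colouring r c hL3 g h0

end Tables

end Crest.Agent.Helper40.S0453
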