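import Crest.Agent.Helper40.S0453.Tables
import Crest.Agent.Helper78.S0453.Table3

/-!
# Bridge: helper78's table interface `L3 C` from the colouring inequality (helper40, S0453 D1t)
-/

set_option autoImplicit false

namespace Crest.Agent.Helper40.S0453

open Finset

/-- helper78's `L3 C` (three-row table inequality, all margins) follows from the colouring-model
inequality on the subtypes of columns of sum `1` and `2`. -/
theorem L3_of_colouring {C : Type*} [Fintype C] [DecidableEq C]
    (hL3 : ∀ c : C → ℕ, L3Colouring {w // c w = 1} {w // c w = 2}) :
    Crest.Agent.Helper78.S0453.L3 C :=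
  fun c r g h0 => L3_tables_of_colouring' c r (hL3 c) g h0

end Crest.Agent.Helper40.S0453
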